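import Mathlib
import Vale.Agent.TorusPackets.Defs
import Vale.Agent.TorusPackets.Main

/-! # P007: in every composite degree `n = k + 1 ≥ 4` packets need not equidistribute -/

namespace Vale.Agent.Results.P007.CompositeDegree

open Vale.Agent.TorusPackets MeasureTheory Filter

/-- For every composite `n = k + 1 ≥ 4` there are a totally real field `K` of degree `n`, an
ordering `σ` of its real embeddings and orders `O_i` of `K` with `|Disc O_i| → ∞` whose packet
measures do not converge weakly to the `SL_n(ℝ)`-invariant probability measure `m_n` (along no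
subsequence). In fact all orbits of all the packets lie in one closed `m_n`-null set `Z`. -/
theorem result (k : ℕ) (h4 : 4 ≤ k + 1) (hc : ¬ Nat.Prime (k + 1)) :
    ∃ (K : Type) (_ : Field K) (_ : NumberField K) (σ : Fin (k + 1) ≃ (K →+* ℝ))
      (O : ℕ → Subring K), Module.finrank ℚ K = k + 1 ∧ (∀ i, IsOrder (O i)) ∧
      Tendsto (fun i => absDisc (O i)) atTop atTop ∧
      (∃ Z : Set (X k), IsClosed Z ∧ (∀ i, ∀ S ∈ packet (O i) σ, S ⊆ Z) ∧
        ∀ m : Measure (X k), IsInvariantProb m → m Z = 0) ∧
      ∀ m : Measure (X k), IsInvariantProb m → ∀ φ : ℕ → ℕ, StrictMono φ →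
        ¬ ConvergesTo (fun i => packetMeasure (O (φ i)) σ) m :=
  main k h4 hc

end Vale.Agent.Results.P007.CompositeDegree
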